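import Mathlib
import Vale.Agent.Results.P243.Combined
import Vale.Agent.Lib.P243.MBound

/-!
# P243 (Bang's half-area cylinder covering problem): all our results, with an explicit strong-form bound

Let `K` be a convex body in a 3-dimensional real inner product space, covered by `m` cylinders
`B i + ℝ u i` (arbitrary bases). Then

1. `∑ |B i| ≥ (1/3 + 10^-14) A_min(K)` (every body, every covering: the constant `1/3` is not sharp);
2. if `K` is centrally symmetric, `∑ |B i| ≥ (π / (4 √2)) A_min(K) ≥ A_min(K) / 2`;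
3. if all axes are parallel to one plane, `∑ |B i| ≥ A_min(K) / 2`;
4. if `m ≤ 2`, the directionwise relative area is at least `1/2`;
5. `∑ (3 β i - 2 (β i) ^ (3/2)) ≥ 1` for the capped relative base areas `β i`;
6. the directionwise relative area is at least `1/3 + 2 / (9 √(3 m))`.
-/

namespace Vale.Agent.Results.P243.CombinedPlus

open MeasureTheory Set

variable {E : Type} [NormedAddCommGroup E] [InnerProductSpace ℝ E] [FiniteDimensional ℝ E]
  [MeasurableSpace E] [BorelSpace E]

/-- The plane through the origin orthogonal to `u`. -/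
noncomputable def Perp (u : E) : Submodule ℝ E := (ℝ ∙ u)ᗮ

/-- Lebesgue (outer) measure of a subset of the plane orthogonal to `u`. -/
noncomputable def area {u : E} (B : Set (Perp u)) : ENNReal := volume B

/-- The cylinder `B + ℝ u` with base `B` in the plane orthogonal to `u`. -/
def cylinder (u : E) (B : Set (Perp u)) : Set E :=
  {x | ∃ b ∈ B, ∃ t : ℝ, x = (b : E) + t • u}

/-- The orthogonal projection of `K` onto the plane orthogonal to `u`. -/
noncomputable def shadow (K : Set E) (u : E) : Set (Perp u) :=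
  (Perp u).orthogonalProjectionOnto '' K

/-- The smallest area of an orthogonal projection of `K` onto a plane. -/
noncomputable def Amin (K : Set E) : ENNReal :=
  ⨅ u : {u : E // ‖u‖ = 1}, area (shadow K u)

/-- The relative base area `|B| / |shadow of K along u|` of a cylinder. -/
noncomputable def relArea (K : Set E) (u : E) (B : Set (Perp u)) : ENNReal :=
  area B / area (shadow K u)

/-- The relative base area capped at `1`, as a real number. -/
noncomputable def capArea (K : Set E) (u : E) (B : Set (Perp u)) : ℝ :=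
  (min 1 (relArea K u B)).toReal

theorem result (h3 : Module.finrank ℝ E = 3)
    (K : Set E) (hK : Convex ℝ K) (hKc : IsCompact K) (hKi : (interior K).Nonempty)
    (m : ℕ) (u : Fin m → E) (hu : ∀ i, ‖u i‖ = 1) (B : ∀ i, Set (Perp (u i)))
    (hcov : K ⊆ ⋃ i, cylinder (u i) (B i)) :
    (ENNReal.ofReal (1 / 3 + 1 / 10 ^ 14) * Amin K ≤ ∑ i, area (B i)) ∧
    ((∃ c : E, ∀ x ∈ K, c + c - x ∈ K) →
      ENNReal.ofReal (Real.pi / (4 * Real.sqrt 2)) * Amin K ≤ ∑ i, area (B i) ∧
        Amin K / 2 ≤ ∑ i, area (B i)) ∧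
    ((∃ n : E, n ≠ 0 ∧ ∀ i, inner ℝ n (u i) = 0) → Amin K / 2 ≤ ∑ i, area (B i)) ∧
    (m ≤ 2 → 1 / 2 ≤ ∑ i, relArea K (u i) (B i)) ∧
    (1 ≤ ∑ i, (3 * capArea K (u i) (B i) - 2 * capArea K (u i) (B i) ^ (3 / 2 : ℝ))) ∧
    (ENNReal.ofReal (1 / 3 + 2 / (9 * Real.sqrt (3 * m))) ≤ ∑ i, relArea K (u i) (B i)) := by
  obtain ⟨h1, h2, h3', h4, h5⟩ :=
    Vale.Agent.Results.P243.Combined.result h3 K hK hKc hKi m u hu B hcov
  refine ⟨h1, h2, h3', h4, h5, ?_⟩
  have h6 := Vale.Agent.Lib.P243.sum_ge_of_concave_bound m (fun i => capArea K (u i) (B i))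
    (fun i => ENNReal.toReal_nonneg) h5
  calc ENNReal.ofReal (1 / 3 + 2 / (9 * Real.sqrt (3 * m)))
      ≤ ENNReal.ofReal (∑ i, capArea K (u i) (B i)) := ENNReal.ofReal_le_ofReal h6
    _ = ∑ i, ENNReal.ofReal (capArea K (u i) (B i)) :=
        ENNReal.ofReal_sum_of_nonneg fun i _ => ENNReal.toReal_nonneg
    _ ≤ ∑ i, relArea K (u i) (B i) := by
        apply Finset.sum_le_sum
        intro i _
        unfold capArea
        rw [ENNReal.ofReal_toReal (ne_top_of_le_ne_top ENNReal.one_ne_top (min_le_left _ _))]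
        exact min_le_right _ _

end Vale.Agent.Results.P243.CombinedPlus
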