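import Mathlib
import Vale.Agent.Lib.P243.SymCentre

/-!
# P243 (Bang's half-area cylinder covering problem): centrally symmetric bodies

Let `K` be a convex body in a 3-dimensional real inner product space which is symmetric about
some point `c`. If `K` is covered by finitely many cylinders `B i + ℝ u i` (arbitrary bases), then

  `∑ i, |B i| ≥ (π / (4 √2)) * A_min(K) ≥ A_min(K) / 2`,

so Bang's half-area question has a positive answer for all centrally symmetric convex bodies
(with the better constant `π / (4 √2) = 0.555...`).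

Idea of the proof. (1) An ellipsoid `A (unit ball)` inside `K` carries the density
`1 / (π t √(1 - |A⁻¹ x|²))`, `t = ‖A‖`, all of whose line integrals are at most `1` and whose
total mass is `π |det A| / t`; hence every covering by cylinders costs at least `π |det A| / t`.
(2) Choose the ellipsoid in `K` maximising `|det A| / ‖A‖`. The first-order optimality conditions
produce two supporting slabs of `K` such that the parallelogram cut out by them in the plane
spanned by their normals has area at most `4 √2 |det A| / ‖A‖`; it contains a shadow of `K`.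
-/

namespace Vale.Agent.Results.P243.SymmetricBodies

open MeasureTheory Set

variable {E : Type} [NormedAddCommGroup E] [InnerProductSpace ℝ E] [FiniteDimensional ℝ E]
  [MeasurableSpace E] [BorelSpace E]

/-- The plane through the origin orthogonal to `u`. -/
noncomputable def Perp (u : E) : Submodule ℝ E := (ℝ ∙ u)ᗮ

/-- Lebesgue (outer) measure of a subset of the plane orthogonal to `u`. -/
noncomputable def area {u : E} (B : Set (Perp u)) : ENNReal := volume B

/-- The cylinder `B + ℝ u` with base `B` in the plane orthogonal to `u`. -/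
def cylinder (u : E) (B : Set (Perp u)) : Set E :=
  {x | ∃ b ∈ B, ∃ t : ℝ, x = (b : E) + t • u}

/-- The orthogonal projection of `K` onto the plane orthogonal to `u`. -/
noncomputable def shadow (K : Set E) (u : E) : Set (Perp u) :=
  (Perp u).orthogonalProjectionOnto '' K

/-- The smallest area of an orthogonal projection of `K` onto a plane. -/
noncomputable def Amin (K : Set E) : ENNReal :=
  ⨅ u : {u : E // ‖u‖ = 1}, area (shadow K u)

theorem result (h3 : Module.finrank ℝ E = 3)
    (K : Set E) (hK : Convex ℝ K) (hKc : IsCompact K) (hKi : (interior K).Nonempty)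
    (c : E) (hsym : ∀ x ∈ K, c + c - x ∈ K)
    (m : ℕ) (u : Fin m → E) (hu : ∀ i, ‖u i‖ = 1) (B : ∀ i, Set (Perp (u i)))
    (hcov : K ⊆ ⋃ i, cylinder (u i) (B i)) :
    ENNReal.ofReal (Real.pi / (4 * Real.sqrt 2)) * Amin K ≤ ∑ i, area (B i) ∧
      Amin K / 2 ≤ ∑ i, area (B i) := by
  have hfact : Fact (Module.finrank ℝ E = 2 + 1) := ⟨h3⟩
  have hcov' : ∀ x ∈ K, ∃ i, ∃ b ∈ B i, ∃ t : ℝ, x = (b : E) + t • u i := by
    intro x hx
    obtain ⟨i, hi⟩ := mem_iUnion.mp (hcov hx)
    exact ⟨i, hi⟩
  obtain ⟨w, hw, hmain⟩ :=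
    Vale.Agent.Lib.P243.sym_main_centre' hK hKc hKi c hsym u hu B hcov'
  have hA : Amin K ≤ area (shadow K w) := iInf_le_of_le ⟨w, hw⟩ le_rfl
  have h1 : ENNReal.ofReal (Real.pi / (4 * Real.sqrt 2)) * Amin K ≤ ∑ i, area (B i) :=
    (mul_le_mul_right hA _).trans hmain
  refine ⟨h1, le_trans ?_ h1⟩
  have h2 : (1 / 2 : ℝ) ≤ Real.pi / (4 * Real.sqrt 2) := by
    have hs : Real.sqrt 2 ≤ 3 / 2 := by
      rw [Real.sqrt_le_left (by norm_num)]
      norm_num
    have hs0 : 0 < Real.sqrt 2 := Real.sqrt_pos.mpr (by norm_num)
    rw [div_le_div_iff₀ (by norm_num) (by positivity)]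
    nlinarith [Real.pi_gt_three]
  have h3' : (2 : ENNReal)⁻¹ ≤ ENNReal.ofReal (Real.pi / (4 * Real.sqrt 2)) := by
    have : (2 : ENNReal)⁻¹ = ENNReal.ofReal (1 / 2) := by
      rw [one_div, ENNReal.ofReal_inv_of_pos (by norm_num)]
      simp
    rw [this]
    exact ENNReal.ofReal_le_ofReal h2
  rw [ENNReal.div_eq_inv_mul]
  exact mul_le_mul_left h3' _

end Vale.Agent.Results.P243.SymmetricBodies
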