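import Mathlib
import Vale.Agent.Lib.P243.UniMain

/-!
# P243 (Bang's cylinder covering problem): the constant `1/3` is not sharp

Let `K` be any convex body in a 3-dimensional real inner product space. If `K` is covered by
finitely many cylinders `B i + ℝ u i` (arbitrary bases `B i` in the planes orthogonal to `u i`), then

  `∑ i, |B i| ≥ (1/3 + 10^-14) * A_min(K)`,

where `A_min(K)` is the smallest area of an orthogonal projection of `K` onto a plane. So the best
universal constant `c_3` is strictly bigger than the Bezdek-Litvak value `1/3`.

Idea of the proof. Let `[a, b]` be a diameter of `K`, of length `D`, and let `V` be the set of the points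
of `K` which see a point of `K` at distance more than `(1 - eta) D`. The part of `K` outside `V`, together
with a small ball around one end of the diameter, has diameter at most `(1 - eta) D`, so that covering
it costs at least its volume divided by `(1 - eta) D`. A fibre argument (Stewart's identity on the
triangles `a b k`) shows that `V` is tiny away from the two ends unless `vol K` exceeds `D |P| / 3`
noticeably, and that `V` is tiny near an end unless the plane section of `K` close to this end is fat.
If both end sections are fat, `K` contains an oblique prism of long parallel chords and the concavity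
estimate `3 b^2 - 2 b^3` for the volume inside a cylinder shows that `vol K` exceeds `D A_min / 3` noticeably.
-/

namespace Vale.Agent.Results.P243.UniversalBound

open MeasureTheory Set

variable {E : Type} [NormedAddCommGroup E] [InnerProductSpace ℝ E] [FiniteDimensional ℝ E]
  [MeasurableSpace E] [BorelSpace E]

/-- The plane through the origin orthogonal to `u`. -/
noncomputable def Perp (u : E) : Submodule ℝ E := (ℝ ∙ u)ᗮ

/-- Lebesgue (outer) measure of a subset of the plane orthogonal to `u`. -/
noncomputable def area {u : E} (B : Set (Perp u)) : ENNReal := volume B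

/-- The cylinder `B + ℝ u` with base `B` in the plane orthogonal to `u`. -/
def cylinder (u : E) (B : Set (Perp u)) : Set E :=
  {x | ∃ b ∈ B, ∃ t : ℝ, x = (b : E) + t • u}

/-- The orthogonal projection of `K` onto the plane orthogonal to `u`. -/
noncomputable def shadow (K : Set E) (u : E) : Set (Perp u) :=
  (Perp u).orthogonalProjectionOnto '' K

/-- The smallest area of an orthogonal projection of `K` onto a plane. -/
noncomputable def Amin (K : Set E) : ENNReal :=
  ⨅ u : {u : E // ‖u‖ = 1}, area (shadow K u)

theorem result (h3 : Module.finrank ℝ E = 3)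
    (K : Set E) (hK : Convex ℝ K) (hKc : IsCompact K) (hKi : (interior K).Nonempty)
    (m : ℕ) (u : Fin m → E) (hu : ∀ i, ‖u i‖ = 1) (B : ∀ i, Set (Perp (u i)))
    (hcov : K ⊆ ⋃ i, cylinder (u i) (B i)) :
    ENNReal.ofReal (1 / 3 + 1 / 10 ^ 14) * Amin K ≤ ∑ i, area (B i) := by
  have hfact : Fact (Module.finrank ℝ E = 2 + 1) := ⟨h3⟩
  have hcov' : ∀ x ∈ K, ∃ i, ∃ b ∈ B i, ∃ t : ℝ, x = (b : E) + t • u i := by
    intro x hx
    obtain ⟨i, hi⟩ := mem_iUnion.mp (hcov hx)
    exact ⟨i, hi⟩
  have hA : ∀ w : E, ‖w‖ = 1 →
      Amin K ≤ volume ((ℝ ∙ w)ᗮ.orthogonalProjectionOnto '' K) :=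
    fun w hw => iInf_le_of_le ⟨w, hw⟩ le_rfl
  exact Vale.Agent.Lib.P243.uni_main hK hKc hKi u hu B hcov' hA

end Vale.Agent.Results.P243.UniversalBound
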